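import Vale.Agent.P091.CH.H847.Fou

/-!
# Carleson-Hunt on the finite grid: almost orthogonality (BES1-BES4)
-/

open Finset

namespace Vale.Agent.P091.CH.H350

open Vale.Agent.P091.CH Vale.Agent.P091.CH.H847

variable {K : ℕ}

/-! ## metric -/

theorem nrm_nonneg (x : X K) : 0 ≤ nrm x := norm_nonneg _

theorem nrm_zero : nrm (0 : X K) = 0 := by unfold nrm; rw [map_zero, norm_zero]

theorem nrm_neg (x : X K) : nrm (-x) = nrm x := by unfold nrm; rw [map_neg, norm_neg]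

theorem nrm_add_le (x y : X K) : nrm (x + y) ≤ nrm x + nrm y := by
  unfold nrm; rw [map_add]; exact norm_add_le _ _

theorem nrm_sub_comm (x y : X K) : nrm (x - y) = nrm (y - x) := by
  rw [← nrm_neg, neg_sub]

theorem nrm_tri (x y z : X K) : nrm (x - z) ≤ nrm (x - y) + nrm (y - z) := by
  have := nrm_add_le (x - y) (y - z)
  rwa [sub_add_sub_cancel] at this

/-- shifting a weight -/
theorem shift_wt {a b u v w : ℝ} (n : ℕ) (ha : 0 ≤ a) (hab : a ≤ b) (hu : 0 ≤ u) (hv : 0 ≤ v)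
    (hw : 0 ≤ w) (h : w ≤ u + v) :
    (1 + a * u)⁻¹ ^ n ≤ (1 + b * v) ^ n * (1 + a * w)⁻¹ ^ n := by
  have hb : 0 ≤ b := ha.trans hab
  have h1 : 0 < 1 + a * u := by positivity
  have h2 : 0 < 1 + a * w := by positivity
  have h3 : 0 < 1 + b * v := by positivity
  rw [← mul_pow]
  refine pow_le_pow_left₀ (inv_nonneg.2 h1.le) ?_ n
  rw [← div_eq_mul_inv, le_div_iff₀ h2, ← div_eq_inv_mul, div_le_iff₀ h1]
  have e1 : a * w ≤ a * u + a * v := by
    have := mul_le_mul_of_nonneg_left h ha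
    linarith
  have e2 : a * v ≤ b * v := mul_le_mul_of_nonneg_right hab hv
  have e3 : 0 ≤ (b * v) * (a * u) := by positivity
  nlinarith

/-! ## averages -/

theorem ave_nonneg {g : X K → ℝ} (h : ∀ x, 0 ≤ g x) : 0 ≤ ave g := by
  unfold ave
  exact div_nonneg (sum_nonneg fun x _ => h x) (by positivity)

theorem ave_mono {g g' : X K → ℝ} (h : ∀ x, g x ≤ g' x) : ave g ≤ ave g' := by
  unfold ave
  gcongr with x _
  exact h x

theorem ave_mul_left (c : ℝ) (g : X K → ℝ) : ave (fun x => c * g x) = c * ave g := by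
  unfold ave
  rw [← Finset.mul_sum, mul_div_assoc]

theorem norm_aveC_le (g : X K → ℂ) : ‖aveC g‖ ≤ ave (fun x => ‖g x‖) := by
  unfold aveC ave
  rw [norm_div, norm_pow, Complex.norm_two]
  gcongr
  exact norm_sum_le _ _

theorem conj_aveC (g : X K → ℂ) : (starRingEnd ℂ) (aveC g) = aveC (fun x => (starRingEnd ℂ) (g x)) := by
  unfold aveC
  rw [map_div₀, map_sum, map_pow, Complex.conj_ofNat]

theorem ave_sq_ofReal (g : X K → ℂ) :
    ((ave (fun x => ‖g x‖ ^ 2) : ℝ) : ℂ) = aveC (fun x => g x * (starRingEnd ℂ) (g x)) := by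
  unfold aveC ave
  push_cast
  congr 1
  refine Finset.sum_congr rfl fun x _ => ?_
  rw [Complex.mul_conj, Complex.normSq_eq_norm_sq]
  push_cast
  rfl

/-- Cauchy-Schwarz -/
theorem ave_cs (u v : X K → ℝ) :
    ave (fun x => u x * v x) ^ 2 ≤ ave (fun x => u x ^ 2) * ave (fun x => v x ^ 2) := by
  unfold ave
  rw [div_pow, div_mul_div_comm, ← sq]
  gcongr
  exact Finset.sum_mul_sq_le_sq_mul_sq _ _ _

/-! ## tiles -/

theorem Ok_bounds {s : Tile} (h : s.Ok K) :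
    s.k + 3 ≤ K ∧ s.k ≤ K ∧ 0 ≤ (s.l - 10) * 2 ^ s.k ∧ (s.l - 2) * 2 ^ s.k ≤ 2 ^ K := by
  obtain ⟨h1, h2, h3, h4⟩ := h
  have e : (2:ℤ) ^ K = 2 ^ (K - s.k) * 2 ^ s.k := by
    rw [← pow_add]
    congr 1
    omega
  have e2 : (64:ℤ) ≤ 2 ^ (K - s.k) := by
    have : (2:ℤ) ^ 6 ≤ 2 ^ (K - s.k) := pow_le_pow_right₀ (by norm_num) (by omega)
    linarith
  have hp : (0:ℤ) < 2 ^ s.k := by positivity
  refine ⟨by omega, by omega, ?_, ?_⟩
  · nlinarith
  · nlinarith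

theorem pt_mem_dy {k j : ℕ} (hk : k ≤ K) (hj : j < 2 ^ k) : pt K k j 0 ∈ dy K k j := by
  unfold pt dy
  rw [mem_filter]
  refine ⟨mem_univ _, ?_⟩
  rw [zero_mul, add_zero, ZMod.val_natCast]
  have h1 : (2:ℕ) ^ K = 2 ^ k * 2 ^ (K - k) := by
    rw [← pow_add]
    congr 1
    omega
  have h2 : j * 2 ^ (K - k) < 2 ^ K := by
    rw [h1]
    exact Nat.mul_lt_mul_of_pos_right hj (by positivity)
  rw [Nat.mod_eq_of_lt h2]
  exact Nat.mul_div_cancel _ (by positivity)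

theorem nrm_c_pt (g3 : P_GEO3) {r : ℕ} (hr : r < 8) {s : Tile} (hs : s.Ok K) :
    nrm (s.c K - pt K s.k s.j r) ≤ ((2:ℝ) ^ s.k)⁻¹ := by
  have h := Ok_bounds hs
  exact (g3 K s.k s.j r (s.c K) h.1 hr hs.2.1 (pt_mem_dy h.2.1 hs.2.1)).1

theorem len_pos (s : Tile) : 0 < s.len := by unfold Tile.len; positivity

theorem len_mul (s : Tile) : s.len * 2 ^ s.k = 1 := by
  unfold Tile.len
  exact inv_mul_cancel₀ (by positivity)

/-! ## BES1 -/

/-- two packets with two symbols -/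
theorem bes1'_of (k1 : P_KER1) (g1 : P_GEO1) (g3 : P_GEO3) : ∀ B : ℝ, ∃ C : ℝ, 0 ≤ C ∧
    ∀ m m', IsSym B m → IsSym B m' → ∀ (K r : ℕ), r < 8 →
    ∀ s t : Tile, s.Ok K → t.Ok K → s.k ≤ t.k →
    ave (fun x : X K => ‖pk m r s x‖ * ‖pk m' r t x‖)
      ≤ C * 2 ^ s.k * (1 + 2 ^ s.k * nrm (s.c K - t.c K))⁻¹ ^ 15 := by
  intro B
  obtain ⟨C1, hC1⟩ := k1 B
  obtain ⟨C2, hC2⟩ := g1
  refine ⟨3 ^ 15 * |C1| ^ 2 * |C2|, by positivity, fun m m' hm hm' K r hr s t hs ht hst => ?_⟩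
  have bs := Ok_bounds hs
  have bt := Ok_bounds ht
  set p := pt K s.k s.j r with hp
  set q := pt K t.k t.j r with hq
  set a : ℝ := 2 ^ s.k with ha
  set b : ℝ := 2 ^ t.k with hb
  have ha0 : 0 < a := by positivity
  have hb0 : 0 < b := by positivity
  have hab : a ≤ b := pow_le_pow_right₀ (by norm_num) hst
  set w := nrm (s.c K - t.c K) with hw
  have hps : nrm (s.c K - p) ≤ a⁻¹ := nrm_c_pt g3 hr hs
  have hqt : nrm (t.c K - q) ≤ b⁻¹ := nrm_c_pt g3 hr ht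
  have hba : b⁻¹ ≤ a⁻¹ := inv_anti₀ ha0 hab
  have hwpq : w ≤ nrm (p - q) + 2 * a⁻¹ := by
    have e1 := nrm_tri (s.c K) p (t.c K)
    have e2 := nrm_tri p q (t.c K)
    have e3 : nrm (q - t.c K) = nrm (t.c K - q) := nrm_sub_comm _ _
    rw [hw]
    linarith
  -- passage from `p - q` to `w`
  have hpass : (1 + a * nrm (p - q))⁻¹ ^ 15 ≤ 3 ^ 15 * (1 + a * w)⁻¹ ^ 15 := by
    have := shift_wt (a := a) (b := a) (u := nrm (p - q)) (v := 2 * a⁻¹) (w := w) 15 ha0.le le_rfl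
      (nrm_nonneg _) (by positivity) (nrm_nonneg _) hwpq
    have e : (1 + a * (2 * a⁻¹)) = 3 := by
      field_simp
      norm_num
    rwa [e] at this
  have hk1 : ∀ x : X K, ‖pk m r s x‖ ≤ |C1| * a * (1 + a * nrm (x - p))⁻¹ ^ 15 := by
    intro x
    have h := hC1 m hm K s.k s.l bs.2.1 bs.2.2.1 bs.2.2.2 (x - p)
    have hu : 0 ≤ nrm (x - p) := nrm_nonneg _
    have h2 : (1 + a * nrm (x - p))⁻¹ ≤ 1 := inv_le_one_of_one_le₀ (by nlinarith)
    have h3 : (0:ℝ) ≤ (1 + a * nrm (x - p))⁻¹ := by positivity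
    have h4 : (1 + a * nrm (x - p))⁻¹ ^ 20 ≤ (1 + a * nrm (x - p))⁻¹ ^ 15 :=
      pow_le_pow_of_le_one h3 h2 (by norm_num)
    have h5 : C1 * a ≤ |C1| * a := mul_le_mul_of_nonneg_right (le_abs_self _) ha0.le
    exact h.trans (mul_le_mul h5 h4 (by positivity) (by positivity))
  have hk2 : ∀ x : X K, ‖pk m' r t x‖ ≤ |C1| * b * (1 + b * nrm (x - q))⁻¹ ^ 17 := by
    intro x
    have h := hC1 m' hm' K t.k t.l bt.2.1 bt.2.2.1 bt.2.2.2 (x - q)
    have hu : 0 ≤ nrm (x - q) := nrm_nonneg _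
    have h2 : (1 + b * nrm (x - q))⁻¹ ≤ 1 := inv_le_one_of_one_le₀ (by nlinarith)
    have h3 : (0:ℝ) ≤ (1 + b * nrm (x - q))⁻¹ := by positivity
    have h4 : (1 + b * nrm (x - q))⁻¹ ^ 20 ≤ (1 + b * nrm (x - q))⁻¹ ^ 17 :=
      pow_le_pow_of_le_one h3 h2 (by norm_num)
    have h5 : C1 * b ≤ |C1| * b := mul_le_mul_of_nonneg_right (le_abs_self _) hb0.le
    exact h.trans (mul_le_mul h5 h4 (by positivity) (by positivity))
  have hpt : ∀ x : X K, ‖pk m r s x‖ * ‖pk m' r t x‖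
      ≤ (|C1| ^ 2 * a * b * (3 ^ 15 * (1 + a * w)⁻¹ ^ 15)) * (1 + b * nrm (x - q))⁻¹ ^ 2 := by
    intro x
    have hu : 0 ≤ nrm (x - p) := nrm_nonneg _
    have hv : 0 ≤ nrm (x - q) := nrm_nonneg _
    have h1 : (1 + a * nrm (x - p))⁻¹ ^ 15
        ≤ (1 + b * nrm (x - q)) ^ 15 * (1 + a * nrm (p - q))⁻¹ ^ 15 := by
      refine shift_wt 15 ha0.le hab hu hv (nrm_nonneg _) ?_
      have e1 := nrm_tri p x q
      have e2 := nrm_sub_comm p x
      linarith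
    have hne : (0:ℝ) < 1 + b * nrm (x - q) := by positivity
    have h2 : (1 + b * nrm (x - q)) ^ 15 * (1 + b * nrm (x - q))⁻¹ ^ 17
        = (1 + b * nrm (x - q))⁻¹ ^ 2 := by
      field_simp
    have h3 : (0:ℝ) ≤ (1 + b * nrm (x - q))⁻¹ ^ 17 := by positivity
    calc ‖pk m r s x‖ * ‖pk m' r t x‖
        ≤ (|C1| * a * (1 + a * nrm (x - p))⁻¹ ^ 15) * (|C1| * b * (1 + b * nrm (x - q))⁻¹ ^ 17) :=
          mul_le_mul (hk1 x) (hk2 x) (norm_nonneg _) (by positivity)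
      _ ≤ (|C1| * a * ((1 + b * nrm (x - q)) ^ 15 * (1 + a * nrm (p - q))⁻¹ ^ 15))
            * (|C1| * b * (1 + b * nrm (x - q))⁻¹ ^ 17) := by gcongr
      _ = (|C1| ^ 2 * a * b * (1 + a * nrm (p - q))⁻¹ ^ 15) *
            ((1 + b * nrm (x - q)) ^ 15 * (1 + b * nrm (x - q))⁻¹ ^ 17) := by ring
      _ = (|C1| ^ 2 * a * b * (1 + a * nrm (p - q))⁻¹ ^ 15) * (1 + b * nrm (x - q))⁻¹ ^ 2 := by
          rw [h2]
      _ ≤ _ := by gcongr
  have hg := hC2 K t.k q bt.2.1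
  rw [← hb] at hg
  have hw0 : 0 ≤ w := nrm_nonneg _
  calc ave (fun x : X K => ‖pk m r s x‖ * ‖pk m' r t x‖)
      ≤ ave (fun x : X K => (|C1| ^ 2 * a * b * (3 ^ 15 * (1 + a * w)⁻¹ ^ 15)) *
          (1 + b * nrm (x - q))⁻¹ ^ 2) := ave_mono hpt
    _ = (|C1| ^ 2 * a * b * (3 ^ 15 * (1 + a * w)⁻¹ ^ 15)) *
          ave (fun x : X K => (1 + b * nrm (x - q))⁻¹ ^ 2) := ave_mul_left _ _
    _ ≤ (|C1| ^ 2 * a * b * (3 ^ 15 * (1 + a * w)⁻¹ ^ 15)) * (|C2| * b⁻¹) := by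
        gcongr
        exact hg.trans (by gcongr; exact le_abs_self _)
    _ = 3 ^ 15 * |C1| ^ 2 * |C2| * a * (1 + a * w)⁻¹ ^ 15 := by
        field_simp

theorem bes1_of (k1 : P_KER1) (g1 : P_GEO1) (g3 : P_GEO3) : P_BES1 := by
  intro B
  obtain ⟨C, -, hC⟩ := bes1'_of k1 g1 g3 B
  refine ⟨C, fun m hm K r hr s t hs ht hst => ?_⟩
  refine (norm_aveC_le _).trans ?_
  have := hC m m hm hm K r hr s t hs ht hst
  refine le_trans (le_of_eq ?_) this
  congr 1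
  funext x
  rw [norm_mul, Complex.norm_conj]

/-! ## BES2 -/

theorem pk_eq (m : ℕ → ℤ → ℤ → ℂ) (r : ℕ) (s : Tile) (x : X K) :
    pk m r s x = ∑ ξ ∈ win K, (m s.k s.l ξ * ch (-ξ) (pt K s.k s.j r)) * ch ξ x := by
  unfold pk ker
  refine Finset.sum_congr rfl fun ξ _ => ?_
  rw [ch_sub']
  ring

theorem bes2' {B : ℝ} {m m' : ℕ → ℤ → ℤ → ℂ} (hm : IsSym B m) (hm' : IsSym B m') (r : ℕ)
    (s t : Tile)
    (h : (s.l - 2) * 2 ^ s.k ≤ (t.l - 10) * 2 ^ t.k ∨ (t.l - 2) * 2 ^ t.k ≤ (s.l - 10) * 2 ^ s.k) :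
    aveC (fun x : X K => pk m r s x * (starRingEnd ℂ) (pk m' r t x)) = 0 := by
  simp_rw [pk_eq]
  rw [parseval]
  refine Finset.sum_eq_zero fun ξ _ => ?_
  have h1 := (hm s.k s.l).1 ξ
  have h2 := (hm' t.k t.l).1 ξ
  by_cases c1 : ξ < (s.l - 10) * 2 ^ s.k ∨ (s.l - 2) * 2 ^ s.k ≤ ξ
  · rw [h1 c1]; simp
  · by_cases c2 : ξ < (t.l - 10) * 2 ^ t.k ∨ (t.l - 2) * 2 ^ t.k ≤ ξ
    · rw [h2 c2]; simp
    · exfalso
      push Not at c1 c2
      rcases h with h | h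
      · linarith [c1.2, c2.1]
      · linarith [c1.1, c2.2]

theorem bes2 : P_BES2 := fun _ _ hm K r s t _ _ h => bes2' (K := K) hm hm r s t h

/-! ## BES3 -/

/-- structure of a lacunary tree -/
theorem lac_cases {T : Finset Tile} {kT jT : ℕ} {ξ : ℤ} (hG : Good K T) (hT : IsLac T kT jT ξ)
    {s t : Tile} (hs : s ∈ T) (ht : t ∈ T) :
    (s.k = t.k ∧ s.l = t.l) ∨
    ((s.l - 2) * 2 ^ s.k ≤ (t.l - 10) * 2 ^ t.k ∨ (t.l - 2) * 2 ^ t.k ≤ (s.l - 10) * 2 ^ s.k) := by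
  have key : ∀ s ∈ T, ∀ t ∈ T, s.k < t.k → (t.l - 2) * 2 ^ t.k ≤ (s.l - 10) * 2 ^ s.k := by
    intro s hs t ht hst
    have h5 := (hG.1 s hs t ht).1
    have hk : s.k + 5 ≤ t.k := by omega
    have hs1 := (abs_le.1 (hT s hs).2.2).1
    have ht1 := (abs_le.1 (hT t ht).2.2).2
    have ps : (0:ℤ) < 2 ^ s.k := by positivity
    have ptt : (0:ℤ) < 2 ^ t.k := by positivity
    have d1 : ξ < (ξ / 2 ^ s.k + 1) * 2 ^ s.k := Int.lt_ediv_add_one_mul_self ξ ps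
    have d2 : ξ / 2 ^ t.k * 2 ^ t.k ≤ ξ := Int.ediv_mul_le ξ ptt.ne'
    have e : 32 * (2:ℤ) ^ s.k ≤ 2 ^ t.k := by
      have : (2:ℤ) ^ (s.k + 5) ≤ 2 ^ t.k := pow_le_pow_right₀ (by norm_num) hk
      rw [pow_add] at this
      linarith
    nlinarith
  rcases lt_trichotomy s.k t.k with h | h | h
  · exact Or.inr (Or.inr (key s hs t ht h))
  · left
    refine ⟨h, ?_⟩
    have h16 := (hG.1 s hs t ht).2
    have hs1 := abs_le.1 (hT s hs).2.2
    have ht1 := abs_le.1 (hT t ht).2.2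
    rw [← h] at ht1
    omega
  · exact Or.inr (Or.inl (key t ht s hs h))

/-- row sums of the Gram matrix of a lacunary tree (absolute values) -/
theorem row_sum_of (k1 : P_KER1) (g1 : P_GEO1) (g2 : P_GEO2) (g3 : P_GEO3) :
    ∀ B : ℝ, ∃ C : ℝ, 0 ≤ C ∧ ∀ m, IsSym B m → ∀ (K r : ℕ), r < 8 →
    ∀ (T : Finset Tile) (kT jT : ℕ) (ξ : ℤ), Good K T → IsLac T kT jT ξ → ∀ s ∈ T,
    ∑ t ∈ T, t.len * ‖aveC (fun x : X K => pk m r s x * (starRingEnd ℂ) (pk m r t x))‖ ≤ C := by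
  intro B
  obtain ⟨C1, hC10, hC1⟩ := bes1'_of k1 g1 g3 B
  obtain ⟨C2, hC2⟩ := g2
  refine ⟨C1 * |C2|, by positivity, fun m hm K r hr T kT jT ξ hG hT s hs => ?_⟩
  have hsO := hG.2 s hs
  have bs := Ok_bounds hsO
  have hterm : ∀ t ∈ T, t.len * ‖aveC (fun x : X K => pk m r s x * (starRingEnd ℂ) (pk m r t x))‖
      ≤ if t.k = s.k ∧ t.l = s.l then
          C1 * (1 + 2 ^ s.k * nrm (s.c K - pt K s.k t.j 0))⁻¹ ^ 2 else 0 := by
    intro t ht
    rcases lac_cases hG hT hs ht with h | h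
    · rw [if_pos ⟨h.1.symm, h.2.symm⟩]
      have h1 := hC1 m m hm hm K r hr s t hsO (hG.2 t ht) h.1.le
      have h2 : ‖aveC (fun x : X K => pk m r s x * (starRingEnd ℂ) (pk m r t x))‖
          ≤ ave (fun x : X K => ‖pk m r s x‖ * ‖pk m r t x‖) := by
        refine (norm_aveC_le _).trans (le_of_eq ?_)
        congr 1
        funext x
        rw [norm_mul, Complex.norm_conj]
      have hn : 0 ≤ nrm (s.c K - t.c K) := nrm_nonneg _
      have h3 : (1 + 2 ^ s.k * nrm (s.c K - t.c K))⁻¹ ^ 15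
          ≤ (1 + 2 ^ s.k * nrm (s.c K - t.c K))⁻¹ ^ 2 := by
        have : (0:ℝ) < 2 ^ s.k := by positivity
        refine pow_le_pow_of_le_one (by positivity) (inv_le_one_of_one_le₀ ?_) (by norm_num)
        nlinarith
      have h4 : t.len * 2 ^ s.k = 1 := by rw [h.1]; exact len_mul t
      have h5 : t.c K = pt K s.k t.j 0 := by unfold Tile.c; rw [h.1]
      rw [h5] at h1 h3
      have hl : 0 ≤ t.len := (len_pos t).le
      calc t.len * ‖aveC (fun x : X K => pk m r s x * (starRingEnd ℂ) (pk m r t x))‖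
          ≤ t.len * (C1 * 2 ^ s.k * (1 + 2 ^ s.k * nrm (s.c K - pt K s.k t.j 0))⁻¹ ^ 2) := by
            refine mul_le_mul_of_nonneg_left ?_ hl
            refine h2.trans (h1.trans ?_)
            gcongr
        _ = (t.len * 2 ^ s.k) * (C1 * (1 + 2 ^ s.k * nrm (s.c K - pt K s.k t.j 0))⁻¹ ^ 2) := by
            ring
        _ = _ := by rw [h4, one_mul]
    · have h0 := bes2' (K := K) hm hm r s t h
      rw [h0, norm_zero, mul_zero]
      split_ifs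
      · positivity
      · exact le_rfl
  refine (Finset.sum_le_sum hterm).trans ?_
  rw [← Finset.sum_filter]
  have hinj : ∑ t ∈ T.filter (fun t => t.k = s.k ∧ t.l = s.l),
      C1 * (1 + 2 ^ s.k * nrm (s.c K - pt K s.k t.j 0))⁻¹ ^ 2
      ≤ ∑ j ∈ range (2 ^ s.k), C1 * (1 + 2 ^ s.k * nrm (s.c K - pt K s.k j 0))⁻¹ ^ 2 := by
    rw [← Finset.sum_image (s := T.filter (fun t => t.k = s.k ∧ t.l = s.l)) (g := fun t => t.j)
      (f := fun j => C1 * (1 + 2 ^ s.k * nrm (s.c K - pt K s.k j 0))⁻¹ ^ 2)]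
    · refine Finset.sum_le_sum_of_subset_of_nonneg ?_ ?_
      · intro j hj
        rw [mem_image] at hj
        obtain ⟨t, ht, rfl⟩ := hj
        rw [mem_filter] at ht
        rw [mem_range, ← ht.2.1]
        exact (hG.2 t ht.1).2.1
      · intro j _ _
        positivity
    · intro t ht t' ht' hj
      rw [Finset.mem_coe, mem_filter] at ht ht'
      exact Tile.ext (ht.2.1.trans ht'.2.1.symm) hj (ht.2.2.trans ht'.2.2.symm)
  refine hinj.trans ?_
  rw [← Finset.mul_sum]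
  refine mul_le_mul_of_nonneg_left ?_ hC10
  exact (hC2 K s.k 0 (s.c K) bs.1 (by norm_num)).trans (le_abs_self _)

/-- abstract Schur bound with weights -/
theorem schur {ι : Type*} (T : Finset ι) (len : ι → ℝ) (hlen : ∀ s, 0 ≤ len s) (c : ι → ℂ)
    (v : ι → X K → ℂ) (C : ℝ)
    (hC : ∀ s ∈ T, ∑ t ∈ T, len t * ‖aveC (fun x : X K => v s x * (starRingEnd ℂ) (v t x))‖ ≤ C) :
    ave (fun x : X K => ‖∑ s ∈ T, len s * c s * v s x‖ ^ 2) ≤ C * ∑ s ∈ T, len s * ‖c s‖ ^ 2 := by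
  set G : ι → ι → ℂ := fun s t => aveC (fun x : X K => v s x * (starRingEnd ℂ) (v t x)) with hG
  have hsymm : ∀ s t, ‖G s t‖ = ‖G t s‖ := by
    intro s t
    have : G t s = (starRingEnd ℂ) (G s t) := by
      simp only [hG]
      rw [conj_aveC]
      congr 1
      funext x
      rw [map_mul, Complex.conj_conj, mul_comm]
    rw [this, Complex.norm_conj]
  have h1 : ((ave (fun x : X K => ‖∑ s ∈ T, len s * c s * v s x‖ ^ 2) : ℝ) : ℂ)
      = ∑ s ∈ T, ∑ t ∈ T, ((len s * c s) * (len t * (starRingEnd ℂ) (c t))) * G s t := by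
    rw [ave_sq_ofReal]
    have e : ∀ x : X K, (∑ s ∈ T, len s * c s * v s x) *
        (starRingEnd ℂ) (∑ s ∈ T, len s * c s * v s x)
        = ∑ s ∈ T, ∑ t ∈ T, ((len s * c s) * (len t * (starRingEnd ℂ) (c t))) *
            (v s x * (starRingEnd ℂ) (v t x)) := by
      intro x
      rw [map_sum, Finset.sum_mul_sum]
      refine Finset.sum_congr rfl fun s _ => Finset.sum_congr rfl fun t _ => ?_
      rw [map_mul, map_mul, Complex.conj_ofReal]
      ring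
    simp_rw [e]
    rw [aveC_sum]
    refine Finset.sum_congr rfl fun s _ => ?_
    rw [aveC_sum]
    refine Finset.sum_congr rfl fun t _ => ?_
    rw [aveC_mul_left]
  have h2 : ave (fun x : X K => ‖∑ s ∈ T, len s * c s * v s x‖ ^ 2)
      ≤ ∑ s ∈ T, ∑ t ∈ T, (len s * ‖c s‖) * (len t * ‖c t‖) * ‖G s t‖ := by
    have h3 : ave (fun x : X K => ‖∑ s ∈ T, len s * c s * v s x‖ ^ 2)
        = ‖((ave (fun x : X K => ‖∑ s ∈ T, len s * c s * v s x‖ ^ 2) : ℝ) : ℂ)‖ := by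
      rw [Complex.norm_real, Real.norm_eq_abs, abs_of_nonneg]
      exact ave_nonneg fun x => by positivity
    rw [h3, h1]
    refine (norm_sum_le _ _).trans (Finset.sum_le_sum fun s _ => ?_)
    refine (norm_sum_le _ _).trans (Finset.sum_le_sum fun t _ => ?_)
    rw [norm_mul, norm_mul, norm_mul, norm_mul, Complex.norm_conj, Complex.norm_real,
      Complex.norm_real, Real.norm_eq_abs, Real.norm_eq_abs, abs_of_nonneg (hlen s),
      abs_of_nonneg (hlen t)]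
  refine h2.trans ?_
  have h4 : ∑ s ∈ T, ∑ t ∈ T, (len s * ‖c s‖) * (len t * ‖c t‖) * ‖G s t‖
      ≤ ∑ s ∈ T, ∑ t ∈ T, ((len s * ‖c s‖ ^ 2) / 2 * (len t * ‖G s t‖)
        + (len t * ‖c t‖ ^ 2) / 2 * (len s * ‖G s t‖)) := by
    refine Finset.sum_le_sum fun s _ => Finset.sum_le_sum fun t _ => ?_
    have e : 0 ≤ (len s * len t * ‖G s t‖) * (‖c s‖ - ‖c t‖) ^ 2 := by
      have := hlen s
      have := hlen t
      positivity
    nlinarith
  refine h4.trans ?_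
  have h5 : ∀ s ∈ T, ∑ t ∈ T, (len s * ‖c s‖ ^ 2) / 2 * (len t * ‖G s t‖)
      ≤ (len s * ‖c s‖ ^ 2) / 2 * C := by
    intro s hs
    rw [← Finset.mul_sum]
    refine mul_le_mul_of_nonneg_left (hC s hs) ?_
    have := hlen s
    positivity
  have h6 : ∑ s ∈ T, ∑ t ∈ T, (len s * ‖c s‖ ^ 2) / 2 * (len t * ‖G s t‖)
      ≤ C * (∑ s ∈ T, len s * ‖c s‖ ^ 2) / 2 := by
    refine (Finset.sum_le_sum h5).trans (le_of_eq ?_)
    rw [← Finset.sum_mul, ← Finset.sum_div]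
    ring
  have h7 : ∑ s ∈ T, ∑ t ∈ T, (len t * ‖c t‖ ^ 2) / 2 * (len s * ‖G s t‖)
      = ∑ s ∈ T, ∑ t ∈ T, (len s * ‖c s‖ ^ 2) / 2 * (len t * ‖G s t‖) := by
    rw [Finset.sum_comm]
    refine Finset.sum_congr rfl fun s _ => Finset.sum_congr rfl fun t _ => ?_
    rw [hsymm t s]
  simp_rw [Finset.sum_add_distrib]
  rw [h7]
  linarith

theorem bes3_of (k1 : P_KER1) (g1 : P_GEO1) (g2 : P_GEO2) (g3 : P_GEO3) : P_BES3 := by
  intro B
  obtain ⟨C, -, hC⟩ := row_sum_of k1 g1 g2 g3 B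
  refine ⟨C, fun m hm K r hr T kT jT ξ hG hT c => ?_⟩
  exact schur T (fun s => s.len) (fun s => (len_pos s).le) c (fun s => pk m r s) C
    (hC m hm K r hr T kT jT ξ hG hT)

/-! ## BES4 -/

theorem fwdDiff_conj (f : ℤ → ℂ) :
    fwdDiff (1:ℤ) (fun ξ => (starRingEnd ℂ) (f ξ)) = fun ξ => (starRingEnd ℂ) (fwdDiff (1:ℤ) f ξ) := by
  funext ξ
  unfold fwdDiff
  rw [map_sub]

theorem fwdDiff_iter_conj (f : ℤ → ℂ) (i : ℕ) :
    (fwdDiff (1:ℤ))^[i] (fun ξ => (starRingEnd ℂ) (f ξ))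
      = fun ξ => (starRingEnd ℂ) ((fwdDiff (1:ℤ))^[i] f ξ) := by
  induction i generalizing f with
  | zero => rfl
  | succ n ih =>
    rw [Function.iterate_succ_apply, Function.iterate_succ_apply, fwdDiff_conj, ih]

theorem IsSym_conj {B : ℝ} {m : ℕ → ℤ → ℤ → ℂ} (hm : IsSym B m) :
    IsSym B (fun k l ξ => (starRingEnd ℂ) (m k l ξ)) := by
  intro k l
  refine ⟨fun ξ h => ?_, fun i hi ξ => ?_⟩
  · show (starRingEnd ℂ) (m k l ξ) = 0
    rw [(hm k l).1 ξ h, map_zero]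
  · show ‖(fwdDiff (1:ℤ))^[i] (fun ξ => (starRingEnd ℂ) (m k l ξ)) ξ‖ ≤ _
    rw [fwdDiff_iter_conj, Complex.norm_conj]
    exact (hm k l).2 i hi ξ

/-- the coefficient as an inner product with a packet -/
theorem co_eq (m : ℕ → ℤ → ℤ → ℂ) (r : ℕ) (f : X K → ℂ) (s : Tile) :
    co m r f s = aveC (fun x => f x * (starRingEnd ℂ)
      (pk (fun k l ξ => (starRingEnd ℂ) (m k l ξ)) r s x)) := by
  unfold co
  rw [fou1]
  congr 1
  funext y
  congr 1
  unfold pk ker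
  rw [map_sum]
  refine Finset.sum_congr rfl fun ξ _ => ?_
  rw [map_mul, Complex.conj_conj, conj_ch, ← ch_neg']
  congr 2
  ring

theorem bes4_of (k1 : P_KER1) (g1 : P_GEO1) (g2 : P_GEO2) (g3 : P_GEO3) : P_BES4 := by
  intro B
  obtain ⟨C, hC⟩ := bes3_of k1 g1 g2 g3 B
  refine ⟨|C|, fun m hm K r hr T kT jT ξ hG hT f => ?_⟩
  set m' : ℕ → ℤ → ℤ → ℂ := fun k l ξ => (starRingEnd ℂ) (m k l ξ) with hm'
  have h3 := hC m' (IsSym_conj hm) K r hr T kT jT ξ hG hT (fun s => co m r f s)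
  set g : X K → ℂ := fun x => ∑ s ∈ T, s.len * co m r f s * pk m' r s x with hg
  set A : ℝ := ∑ s ∈ T, s.len * ‖co m r f s‖ ^ 2 with hA
  have hA0 : 0 ≤ A := Finset.sum_nonneg fun s _ => by
    have := (len_pos s).le
    positivity
  have h4 : (A : ℂ) = aveC (fun x => f x * (starRingEnd ℂ) (g x)) := by
    have e : ∀ x : X K, f x * (starRingEnd ℂ) (g x)
        = ∑ s ∈ T, (s.len * (starRingEnd ℂ) (co m r f s)) *
            (f x * (starRingEnd ℂ) (pk m' r s x)) := by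
      intro x
      simp only [hg]
      rw [map_sum, Finset.mul_sum]
      refine Finset.sum_congr rfl fun s _ => ?_
      rw [map_mul, map_mul, Complex.conj_ofReal]
      ring
    simp_rw [e]
    rw [aveC_sum, hA]
    push_cast
    refine Finset.sum_congr rfl fun s _ => ?_
    rw [aveC_mul_left, ← co_eq, mul_assoc, mul_comm ((starRingEnd ℂ) (co m r f s)),
      Complex.mul_conj, Complex.normSq_eq_norm_sq]
    push_cast
    rfl
  have h5 : A ≤ ave (fun x => ‖f x‖ * ‖g x‖) := by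
    have e : A = ‖(A : ℂ)‖ := by
      rw [Complex.norm_real, Real.norm_eq_abs, abs_of_nonneg hA0]
    rw [e, h4]
    refine (norm_aveC_le _).trans (le_of_eq ?_)
    congr 1
    funext x
    rw [norm_mul, Complex.norm_conj]
  have h6 : A ^ 2 ≤ ave (fun x => ‖f x‖ ^ 2) * (|C| * A) := by
    have e1 : A ^ 2 ≤ ave (fun x => ‖f x‖ * ‖g x‖) ^ 2 := by gcongr
    refine e1.trans ((ave_cs _ _).trans ?_)
    refine mul_le_mul_of_nonneg_left ?_ (ave_nonneg fun x => by positivity)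
    exact h3.trans (mul_le_mul_of_nonneg_right (le_abs_self _) hA0)
  rcases hA0.eq_or_lt with h | h
  · rw [← h]
    exact mul_nonneg (abs_nonneg _) (ave_nonneg fun x => by positivity)
  · refine le_of_mul_le_mul_right ?_ h
    nlinarith

end Vale.Agent.P091.CH.H350
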