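import Vale.Agent.P091.CH.H69.Geo
import Vale.Agent.P091.CH.H43.Ms
import Vale.Agent.P091.CH.H350.Bes
import Vale.Agent.P091.CH.H847.Ker
import Vale.Agent.P091.CH.Light

/-!
# Carleson on the finite grid: FAR (tiles of large mass which are seen below the stopping level)
-/

open Finset

namespace Vale.Agent.P091.CH.H350

open Vale.Agent.P091.CH

variable {K : ℕ}

/-- the densities of two translates -/
theorem dens_translate (E : Finset (X K)) (N : X K → ℤ) {u u' : Tile} (hk : u'.k = u.k)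
    (hl : u'.l = u.l) :
    dens E N u ≤ (1 + 2 ^ u.k * nrm (u.c K - u'.c K)) ^ 10 * dens E N u' := by
  unfold dens
  rw [← ave_mul_left]
  refine ave_mono fun x => ?_
  rw [hk, hl]
  by_cases h : x ∈ E ∧ N x / 2 ^ u.k = u.l
  · rw [if_pos h, if_pos h]
    unfold wt
    refine shift_wt (a := 2 ^ u.k) (b := 2 ^ u.k) 10 (by positivity) le_rfl (nrm_nonneg _)
      (nrm_nonneg _) (nrm_nonneg _) ?_
    exact nrm_tri x (u.c K) (u'.c K)
  · rw [if_neg h, if_neg h, mul_zero]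

theorem dens_nonneg (E : Finset (X K)) (N : X K → ℤ) (u : Tile) : 0 ≤ dens E N u := by
  unfold dens
  refine ave_nonneg fun x => ?_
  split_ifs
  · unfold wt
    have := nrm_nonneg (x - u.c K)
    positivity
  · exact le_rfl

theorem pt_mem {k j r : ℕ} (hk : k + 3 ≤ K) (hj : j < 2 ^ k) (hr : r < 8) :
    pt K k j r ∈ dy K k j := H69.mem_dy.2 (H43.pt_div hk hj hr)

/-- an `x` which sees a tile below a heavy tile `u` is far from `u` -/
theorem far_of_sees {E : Finset (X K)} {N : X K → ℤ} {κ : X K → ℕ} {μ0 δ L : ℝ} (hL : 0 ≤ L)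
    (h01 : (2 * L + 1) ^ 10 * δ ≤ μ0) (hstop : StopLe E N κ δ) {s u : Tile} (hs : s.Ok K)
    (hsu : Dom s u) (hu : μ0 * u.len < dens E N u) {x : X K} (hxE : x ∈ E)
    (hx1 : N x / 2 ^ s.k = s.l) (hx2 : s.k < κ x) :
    2 * L ≤ 1 + 2 ^ u.k * nrm (x - u.c K) := by
  by_contra hc
  push Not at hc
  set u' : Tile := ⟨u.k, x.val / 2 ^ (K - u.k), u.l⟩ with hu'
  have hsk : s.k + 6 ≤ K := hs.1
  have huk : u.k ≤ s.k := hsu.1
  have hdom : Dom (tlx s.k N x) u' := by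
    refine ⟨huk, ?_, ?_⟩
    · show x.val / 2 ^ (K - s.k) / 2 ^ (s.k - u.k) = x.val / 2 ^ (K - u.k)
      rw [Nat.div_div_eq_div_mul, ← pow_add]
      congr 2
      omega
    · show |u.l / 2 ^ (s.k - u.k) - N x / 2 ^ s.k| ≤ 11
      rw [hx1]
      exact hsu.2.2
  have h1 := hstop x hxE s.k hx2 u' hdom
  have h2 := dens_translate E N (u := u) (u' := u') rfl rfl
  have h3 : nrm (x - u'.c K) ≤ ((2:ℝ) ^ u.k)⁻¹ := by
    have : x ∈ dy K u.k (x.val / 2 ^ (K - u.k)) := H69.mem_dy.2 rfl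
    exact H69.nrm_sub_pt_le (k := u.k) (r := 0) (by omega) (by norm_num) this
  have h4 : nrm (u.c K - u'.c K) ≤ nrm (x - u.c K) + ((2:ℝ) ^ u.k)⁻¹ := by
    have e1 := nrm_tri (u.c K) x (u'.c K)
    have e2 := nrm_sub_comm (u.c K) x
    linarith
  have hp : (0:ℝ) < 2 ^ u.k := by positivity
  have h5 : 1 + 2 ^ u.k * nrm (u.c K - u'.c K) ≤ 2 * L + 1 := by
    have := mul_le_mul_of_nonneg_left h4 hp.le
    rw [mul_add, mul_inv_cancel₀ hp.ne'] at this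
    linarith
  have h6 : (0:ℝ) ≤ 1 + 2 ^ u.k * nrm (u.c K - u'.c K) := by
    have := nrm_nonneg (u.c K - u'.c K)
    positivity
  have h7 : (1 + 2 ^ u.k * nrm (u.c K - u'.c K)) ^ 10 ≤ (2 * L + 1) ^ 10 := by gcongr
  have h8 : dens E N u' ≤ δ * u.len := h1
  have h9 : dens E N u ≤ μ0 * u.len := by
    calc dens E N u ≤ (1 + 2 ^ u.k * nrm (u.c K - u'.c K)) ^ 10 * dens E N u' := h2
      _ ≤ (2 * L + 1) ^ 10 * dens E N u' :=
          mul_le_mul_of_nonneg_right h7 (dens_nonneg _ _ _)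
      _ ≤ (2 * L + 1) ^ 10 * (δ * u.len) := by gcongr
      _ = (2 * L + 1) ^ 10 * δ * u.len := by ring
      _ ≤ μ0 * u.len := mul_le_mul_of_nonneg_right h01 (len_pos u).le
  linarith

/-- decay of the packets of the tiles below `u` at the points far from `u` -/
theorem decay_of_far {L : ℝ} (hL : 2 ≤ L) {s u : Tile} (hs : s.Ok K) (hsu : Dom s u) {r : ℕ}
    (hr : r < 8) {x : X K} (hx : 2 * L ≤ 1 + 2 ^ u.k * nrm (x - u.c K)) :
    2 ^ (s.k - u.k) * L ≤ 1 + 2 ^ s.k * nrm (x - pt K s.k s.j r) := by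
  have hsk : s.k + 6 ≤ K := hs.1
  have huk : u.k ≤ s.k := hsu.1
  have huj : u.j < 2 ^ u.k := (H43.dom_props hs hsu).2
  have h1 : pt K s.k s.j r ∈ dy K u.k u.j := by
    have := H69.dy_subset (K := K) huk (by omega) (pt_mem (by omega) hs.2.1 hr)
    rwa [hsu.2.1] at this
  have h2 : u.c K ∈ dy K u.k u.j := pt_mem_dy (by omega) huj
  have h3 := H69.nrm_le_of_dy_dy (by omega) h1 h2
  have h4 := nrm_tri x (pt K s.k s.j r) (u.c K)
  have hp : (0:ℝ) < 2 ^ u.k := by positivity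
  have h5 : L ≤ 2 ^ u.k * nrm (x - pt K s.k s.j r) := by
    have e1 : 2 ^ u.k * nrm (x - u.c K)
        ≤ 2 ^ u.k * nrm (x - pt K s.k s.j r) + 1 := by
      have := mul_le_mul_of_nonneg_left (h4.trans (add_le_add_right h3 _)) hp.le
      rwa [mul_add, mul_inv_cancel₀ hp.ne'] at this
    linarith
  have e : (2:ℝ) ^ s.k = 2 ^ (s.k - u.k) * 2 ^ u.k := by
    rw [← pow_add]
    congr 1
    omega
  rw [e]
  have h6 : (0:ℝ) < 2 ^ (s.k - u.k) := by positivity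
  nlinarith

/-- the sum over the tiles below `u` -/
theorem tail_sum {L : ℝ} (hL : 2 ≤ L) (N : X K → ℤ) (u : Tile) {r : ℕ} (hr : r < 8)
    (Q : Finset Tile) (hQ : ∀ s ∈ Q, s.Ok K ∧ Dom s u) :
    ∑ s ∈ Q, ave (fun x : X K => if N x / 2 ^ s.k = s.l ∧ 2 * L ≤ 1 + 2 ^ u.k * nrm (x - u.c K)
      then (1 + 2 ^ s.k * nrm (x - pt K s.k s.j r))⁻¹ ^ 20 else 0) ≤ 8 * L⁻¹ ^ 18 * u.len := by
  have hL0 : 0 < L := by linarith
  -- pointwise bound
  have hpt : ∀ s ∈ Q, ave (fun x : X K => if N x / 2 ^ s.k = s.l ∧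
        2 * L ≤ 1 + 2 ^ u.k * nrm (x - u.c K)
        then (1 + 2 ^ s.k * nrm (x - pt K s.k s.j r))⁻¹ ^ 20 else 0)
      ≤ (2 ^ (s.k - u.k) * L)⁻¹ ^ 18 * ave (fun x : X K => if N x / 2 ^ s.k = s.l
        then (1 + 2 ^ s.k * nrm (x - pt K s.k s.j r))⁻¹ ^ 2 else 0) := by
    intro s hs
    rw [← ave_mul_left]
    refine ave_mono fun x => ?_
    have hn := nrm_nonneg (x - pt K s.k s.j r)
    have hw : (0:ℝ) < 1 + 2 ^ s.k * nrm (x - pt K s.k s.j r) := by positivity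
    by_cases h : N x / 2 ^ s.k = s.l
    · rw [if_pos h]
      by_cases h2 : 2 * L ≤ 1 + 2 ^ u.k * nrm (x - u.c K)
      · rw [if_pos ⟨h, h2⟩]
        have hd := decay_of_far hL (hQ s hs).1 (hQ s hs).2 hr h2
        have e : (1 + 2 ^ s.k * nrm (x - pt K s.k s.j r))⁻¹ ^ 20
            = (1 + 2 ^ s.k * nrm (x - pt K s.k s.j r))⁻¹ ^ 18
              * (1 + 2 ^ s.k * nrm (x - pt K s.k s.j r))⁻¹ ^ 2 := by rw [← pow_add]
        rw [e]
        gcongr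
      · rw [if_neg (fun hc => h2 hc.2)]
        positivity
    · rw [if_neg (fun hc => h hc.1), if_neg h, mul_zero]
  refine (Finset.sum_le_sum hpt).trans ?_
  -- fibre over `(k, j)`
  have hmaps : ∀ s ∈ Q, (⟨s.k, s.j⟩ : Σ _ : ℕ, ℕ) ∈ (Ico u.k K).sigma
      (fun k => Ico (u.j * 2 ^ (k - u.k)) ((u.j + 1) * 2 ^ (k - u.k))) := by
    intro s hs
    rw [mem_sigma, mem_Ico, mem_Ico]
    have h1 := (hQ s hs).1.1
    have h2 := (hQ s hs).2
    refine ⟨⟨h2.1, (by omega : s.k < K)⟩, ?_, ?_⟩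
    · rw [← h2.2.1]
      exact Nat.div_mul_le_self _ _
    · rw [← h2.2.1, mul_comm]
      exact Nat.lt_mul_div_succ _ (by positivity)
  rw [← Finset.sum_fiberwise_of_maps_to hmaps, Finset.sum_sigma]
  have hfib : ∀ k ∈ Ico u.k K, ∀ j ∈ Ico (u.j * 2 ^ (k - u.k)) ((u.j + 1) * 2 ^ (k - u.k)),
      ∑ s ∈ Q with (⟨s.k, s.j⟩ : Σ _ : ℕ, ℕ) = ⟨k, j⟩,
        (2 ^ (s.k - u.k) * L)⁻¹ ^ 18 * ave (fun x : X K => if N x / 2 ^ s.k = s.l
          then (1 + 2 ^ s.k * nrm (x - pt K s.k s.j r))⁻¹ ^ 2 else 0)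
      ≤ (2 ^ (k - u.k) * L)⁻¹ ^ 18 * (4 * ((2:ℝ) ^ k)⁻¹) := by
    intro k hk j _
    rw [mem_Ico] at hk
    have hcong : ∀ s ∈ Q.filter (fun s => (⟨s.k, s.j⟩ : Σ _ : ℕ, ℕ) = ⟨k, j⟩),
        (2 ^ (s.k - u.k) * L)⁻¹ ^ 18 * ave (fun x : X K => if N x / 2 ^ s.k = s.l
          then (1 + 2 ^ s.k * nrm (x - pt K s.k s.j r))⁻¹ ^ 2 else 0)
        = (2 ^ (k - u.k) * L)⁻¹ ^ 18 * ave (fun x : X K => if N x / 2 ^ k = s.l
          then (1 + 2 ^ k * nrm (x - pt K k j r))⁻¹ ^ 2 else 0) := by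
      intro s hs
      rw [mem_filter] at hs
      have h1 := hs.2
      simp only [Sigma.mk.injEq, heq_eq_eq] at h1
      rw [h1.1, h1.2]
    rw [Finset.sum_congr rfl hcong, ← Finset.mul_sum]
    refine mul_le_mul_of_nonneg_left ?_ (by positivity)
    rw [← H43.ave_sum]
    refine le_trans (ave_mono fun x => ?_) (H69.geo1 (n := 2) le_rfl hk.2.le (pt K k j r))
    rw [← Finset.sum_filter, Finset.sum_const, nsmul_eq_mul]
    have hn := nrm_nonneg (x - pt K k j r)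
    have hcard : (((Q.filter (fun s => (⟨s.k, s.j⟩ : Σ _ : ℕ, ℕ) = ⟨k, j⟩)).filter
        (fun s => N x / 2 ^ k = s.l)).card : ℝ) ≤ 1 := by
      have : ((Q.filter (fun s => (⟨s.k, s.j⟩ : Σ _ : ℕ, ℕ) = ⟨k, j⟩)).filter
          (fun s => N x / 2 ^ k = s.l)).card ≤ 1 := by
        rw [Finset.card_le_one]
        intro s hs t ht
        rw [mem_filter, mem_filter] at hs ht
        have h1 := hs.1.2
        have h2 := ht.1.2
        simp only [Sigma.mk.injEq, heq_eq_eq] at h1 h2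
        exact Tile.ext (h1.1.trans h2.1.symm) (h1.2.trans h2.2.symm) (hs.2.symm.trans ht.2)
      exact_mod_cast this
    have hg : (0:ℝ) ≤ (1 + 2 ^ k * nrm (x - pt K k j r))⁻¹ ^ 2 := by positivity
    nlinarith
  refine (Finset.sum_le_sum fun k hk => Finset.sum_le_sum (hfib k hk)).trans ?_
  have hk1 : ∀ k ∈ Ico u.k K, ∑ _j ∈ Ico (u.j * 2 ^ (k - u.k)) ((u.j + 1) * 2 ^ (k - u.k)),
      (2 ^ (k - u.k) * L)⁻¹ ^ 18 * (4 * ((2:ℝ) ^ k)⁻¹)
      ≤ (4 * L⁻¹ ^ 18 * u.len) * ((2:ℝ) ^ (4 * (k - u.k)))⁻¹ := by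
    intro k hk
    rw [mem_Ico] at hk
    rw [Finset.sum_const, Nat.card_Ico, nsmul_eq_mul, add_mul, one_mul, Nat.add_sub_cancel_left]
    push_cast
    have e1 : (2:ℝ) ^ k = 2 ^ (k - u.k) * 2 ^ u.k := by
      rw [← pow_add]
      congr 1
      omega
    have hp : (0:ℝ) < 2 ^ (k - u.k) := by positivity
    have e2 : (2:ℝ) ^ (k - u.k) * ((2 ^ (k - u.k) * L)⁻¹ ^ 18 * (4 * ((2:ℝ) ^ k)⁻¹))
        = 4 * L⁻¹ ^ 18 * u.len * ((2:ℝ) ^ (k - u.k))⁻¹ ^ 18 := by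
      rw [e1]
      unfold Tile.len
      rw [mul_inv, mul_inv, mul_pow]
      field_simp
    rw [e2]
    have e3 : ((2:ℝ) ^ (k - u.k))⁻¹ ^ 18 ≤ ((2:ℝ) ^ (4 * (k - u.k)))⁻¹ := by
      rw [inv_pow, ← pow_mul]
      exact inv_anti₀ (by positivity) (pow_le_pow_right₀ one_le_two (by omega))
    have hl := (len_pos u).le
    gcongr
  refine (Finset.sum_le_sum hk1).trans ?_
  rw [← Finset.mul_sum]
  have hgeo : ∑ k ∈ Ico u.k K, ((2:ℝ) ^ (4 * (k - u.k)))⁻¹ ≤ 2 := by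
    rw [Finset.sum_Ico_eq_sum_range]
    have : ∀ i ∈ range (K - u.k), ((2:ℝ) ^ (4 * (u.k + i - u.k)))⁻¹ = ((2:ℝ) ^ (4 * i))⁻¹ := by
      intro i _
      rw [Nat.add_sub_cancel_left]
    rw [Finset.sum_congr rfl this]
    exact H43.geom_bound _
  have hl := (len_pos u).le
  have hc : 0 ≤ 4 * L⁻¹ ^ 18 * u.len := by positivity
  nlinarith

/-- the coefficients are bounded by the sup norm -/
theorem norm_co_le (k1 : P_KER1) : ∀ B : ℝ, ∃ C : ℝ, 0 ≤ C ∧ ∀ m, IsSym B m → ∀ (K r : ℕ)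
    (f : X K → ℂ) (F : ℝ), (∀ x, ‖f x‖ ≤ F) → ∀ s : Tile, s.Ok K → ‖co m r f s‖ ≤ C * F := by
  intro B
  obtain ⟨C1, hC1⟩ := k1 B
  refine ⟨4 * |C1|, by positivity, fun m hm K r f F hF s hs => ?_⟩
  have bs := Ok_bounds hs
  have hF0 : 0 ≤ F := (norm_nonneg _).trans (hF 0)
  unfold co
  refine (H847.norm_mul_le _ _ _).trans ?_
  have h1 : ∀ y : X K, ‖f y‖ * ‖ker (m s.k s.l) (pt K s.k s.j r - y)‖
      ≤ (F * (|C1| * 2 ^ s.k)) * (1 + 2 ^ s.k * nrm (y - pt K s.k s.j r))⁻¹ ^ 20 := by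
    intro y
    have h2 := hC1 m hm K s.k s.l bs.2.1 bs.2.2.1 bs.2.2.2 (pt K s.k s.j r - y)
    rw [nrm_sub_comm] at h2
    have hn := nrm_nonneg (y - pt K s.k s.j r)
    have h3 : C1 * 2 ^ s.k * (1 + 2 ^ s.k * nrm (y - pt K s.k s.j r))⁻¹ ^ 20
        ≤ |C1| * 2 ^ s.k * (1 + 2 ^ s.k * nrm (y - pt K s.k s.j r))⁻¹ ^ 20 := by
      have := le_abs_self C1
      gcongr
    calc ‖f y‖ * ‖ker (m s.k s.l) (pt K s.k s.j r - y)‖
        ≤ F * (|C1| * 2 ^ s.k * (1 + 2 ^ s.k * nrm (y - pt K s.k s.j r))⁻¹ ^ 20) :=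
          mul_le_mul (hF y) (h2.trans h3) (norm_nonneg _) hF0
      _ = _ := by ring
  refine (ave_mono h1).trans ?_
  rw [ave_mul_left]
  have h4 := H69.geo1 (n := 20) (by norm_num) bs.2.1 (pt K s.k s.j r)
  have h5 : (2:ℝ) ^ s.k * ((2:ℝ) ^ s.k)⁻¹ = 1 := mul_inv_cancel₀ (by positivity)
  calc (F * (|C1| * 2 ^ s.k)) * ave (fun y : X K => (1 + 2 ^ s.k * nrm (y - pt K s.k s.j r))⁻¹ ^ 20)
      ≤ (F * (|C1| * 2 ^ s.k)) * (4 * ((2:ℝ) ^ s.k)⁻¹) := by gcongr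
    _ = 4 * |C1| * F * ((2:ℝ) ^ s.k * ((2:ℝ) ^ s.k)⁻¹) := by ring
    _ = 4 * |C1| * F := by rw [h5, mul_one]

/-- **FAR** -/
theorem far_of (k1 : P_KER1) : P_FAR := by
  intro B
  obtain ⟨C1, hC10, hC1⟩ := norm_co_le k1 B
  obtain ⟨C2, hC2⟩ := k1 B
  refine ⟨8 * 2 ^ 18 * C1 * |C2|, ?_⟩
  intro m mt hm hmt K r hr f g N κ E P U R F hR hF hg hP hUok hU
  have hF0 : 0 ≤ F := (norm_nonneg _).trans (hF 0)
  obtain ⟨L, hRL⟩ : ∃ L : ℝ, R = 2 * L := ⟨R / 2, by ring⟩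
  have hL : 2 ≤ L := by linarith
  have hL0 : 0 < L := by linarith
  subst hRL
  classical
  choose! φ hφU hφD hφfar using hU
  -- one tile
  have hterm : ∀ s ∈ P, s.len * ‖co m r f s‖ * ‖bcoT mt r g N κ s‖
      ≤ (C1 * F * |C2|) * ave (fun x : X K => if N x / 2 ^ s.k = s.l ∧
        2 * L ≤ 1 + 2 ^ (φ s).k * nrm (x - (φ s).c K)
        then (1 + 2 ^ s.k * nrm (x - pt K s.k s.j r))⁻¹ ^ 20 else 0) := by
    intro s hs
    have hsO := hP s hs
    have bs := Ok_bounds hsO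
    have h1 := hC1 m hm K r f F hF s hsO
    have h2 : ‖bcoT mt r g N κ s‖
        ≤ (|C2| * 2 ^ s.k) * ave (fun x : X K => if N x / 2 ^ s.k = s.l ∧
          2 * L ≤ 1 + 2 ^ (φ s).k * nrm (x - (φ s).c K)
          then (1 + 2 ^ s.k * nrm (x - pt K s.k s.j r))⁻¹ ^ 20 else 0) := by
      unfold bcoT
      refine (norm_aveC_le _).trans ?_
      rw [← ave_mul_left]
      refine ave_mono fun x => ?_
      have hn := nrm_nonneg (x - pt K s.k s.j r)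
      have hrhs : 0 ≤ (|C2| * 2 ^ s.k) * (if N x / 2 ^ s.k = s.l ∧
          2 * L ≤ 1 + 2 ^ (φ s).k * nrm (x - (φ s).c K)
          then (1 + 2 ^ s.k * nrm (x - pt K s.k s.j r))⁻¹ ^ 20 else 0) := by
        split_ifs <;> positivity
      by_cases hx : N x / 2 ^ s.k = s.l ∧ s.k < κ x
      · by_cases hxE : x ∈ E
        · have hfar := hφfar s hs x hxE hx.1 hx.2
          have hg1 : ‖g x‖ ≤ 1 := by
            have := hg x
            rwa [if_pos hxE] at this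
          rw [if_pos hx, if_pos ⟨hx.1, hfar⟩, mul_one, norm_mul]
          have h3 := hC2 mt hmt K s.k s.l bs.2.1 bs.2.2.1 bs.2.2.2 (x - pt K s.k s.j r)
          have h4 : C2 * 2 ^ s.k * (1 + 2 ^ s.k * nrm (x - pt K s.k s.j r))⁻¹ ^ 20
              ≤ |C2| * 2 ^ s.k * (1 + 2 ^ s.k * nrm (x - pt K s.k s.j r))⁻¹ ^ 20 := by
            have := le_abs_self C2
            gcongr
          calc ‖g x‖ * ‖pk mt r s x‖ ≤ 1 * ‖pk mt r s x‖ :=
                mul_le_mul_of_nonneg_right hg1 (norm_nonneg _)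
            _ = ‖pk mt r s x‖ := one_mul _
            _ ≤ _ := h3.trans h4
        · have hg0 : g x = 0 := by
            have := hg x
            rw [if_neg hxE] at this
            exact norm_le_zero_iff.1 this
          rw [hg0, zero_mul, zero_mul, norm_zero]
          exact hrhs
      · rw [if_neg hx, mul_zero, norm_zero]
        exact hrhs
    have h3 : s.len * 2 ^ s.k = 1 := len_mul s
    have hl := (len_pos s).le
    have hA : 0 ≤ ave (fun x : X K => if N x / 2 ^ s.k = s.l ∧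
          2 * L ≤ 1 + 2 ^ (φ s).k * nrm (x - (φ s).c K)
          then (1 + 2 ^ s.k * nrm (x - pt K s.k s.j r))⁻¹ ^ 20 else 0) := by
      refine ave_nonneg fun x => ?_
      have hn := nrm_nonneg (x - pt K s.k s.j r)
      split_ifs <;> positivity
    calc s.len * ‖co m r f s‖ * ‖bcoT mt r g N κ s‖
        ≤ s.len * (C1 * F) * ((|C2| * 2 ^ s.k) * ave (fun x : X K => if N x / 2 ^ s.k = s.l ∧
          2 * L ≤ 1 + 2 ^ (φ s).k * nrm (x - (φ s).c K)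
          then (1 + 2 ^ s.k * nrm (x - pt K s.k s.j r))⁻¹ ^ 20 else 0)) := by
          refine mul_le_mul ?_ h2 (norm_nonneg _) (by positivity)
          exact mul_le_mul_of_nonneg_left h1 hl
      _ = (s.len * 2 ^ s.k) * ((C1 * F * |C2|) * ave (fun x : X K => if N x / 2 ^ s.k = s.l ∧
          2 * L ≤ 1 + 2 ^ (φ s).k * nrm (x - (φ s).c K)
          then (1 + 2 ^ s.k * nrm (x - pt K s.k s.j r))⁻¹ ^ 20 else 0)) := by ring
      _ = _ := by rw [h3, one_mul]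
  refine (Finset.sum_le_sum hterm).trans ?_
  rw [← Finset.mul_sum, ← Finset.sum_fiberwise_of_maps_to hφU]
  have hfib : ∀ u ∈ U, ∑ s ∈ P with φ s = u, ave (fun x : X K => if N x / 2 ^ s.k = s.l ∧
        2 * L ≤ 1 + 2 ^ (φ s).k * nrm (x - (φ s).c K)
        then (1 + 2 ^ s.k * nrm (x - pt K s.k s.j r))⁻¹ ^ 20 else 0) ≤ 8 * L⁻¹ ^ 18 * u.len := by
    intro u _
    have hcong : ∀ s ∈ P.filter (fun s => φ s = u), ave (fun x : X K =>
        if N x / 2 ^ s.k = s.l ∧ 2 * L ≤ 1 + 2 ^ (φ s).k * nrm (x - (φ s).c K)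
        then (1 + 2 ^ s.k * nrm (x - pt K s.k s.j r))⁻¹ ^ 20 else 0)
        = ave (fun x : X K =>
        if N x / 2 ^ s.k = s.l ∧ 2 * L ≤ 1 + 2 ^ u.k * nrm (x - u.c K)
        then (1 + 2 ^ s.k * nrm (x - pt K s.k s.j r))⁻¹ ^ 20 else 0) := by
      intro s hs
      rw [(mem_filter.1 hs).2]
    rw [Finset.sum_congr rfl hcong]
    refine tail_sum hL N u hr _ fun s hs => ?_
    rw [mem_filter] at hs
    refine ⟨hP s hs.1, ?_⟩
    have := hφD s hs.1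
    rwa [hs.2] at this
  refine (mul_le_mul_of_nonneg_left (Finset.sum_le_sum hfib) (by positivity)).trans ?_
  rw [← Finset.mul_sum]
  have hsum : 0 ≤ ∑ u ∈ U, u.len := Finset.sum_nonneg fun u _ => (len_pos u).le
  have hLpow : L⁻¹ ^ 18 ≤ 2 ^ 18 * (2 * L)⁻¹ ^ 15 := by
    have h1 : L⁻¹ ^ 18 ≤ L⁻¹ ^ 15 :=
      pow_le_pow_of_le_one (by positivity) (inv_le_one_of_one_le₀ (by linarith)) (by norm_num)
    have h2 : (0:ℝ) ≤ L⁻¹ ^ 15 := by positivity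
    have h3 : (2:ℝ) ^ 18 * (2 * L)⁻¹ ^ 15 = 8 * L⁻¹ ^ 15 := by
      rw [mul_inv, mul_pow, inv_pow 2 15, ← mul_assoc]
      congr 1
      norm_num
    rw [h3]
    linarith
  calc C1 * F * |C2| * (8 * L⁻¹ ^ 18 * ∑ u ∈ U, u.len)
      = (8 * C1 * |C2| * F * ∑ u ∈ U, u.len) * L⁻¹ ^ 18 := by ring
    _ ≤ (8 * C1 * |C2| * F * ∑ u ∈ U, u.len) * (2 ^ 18 * (2 * L)⁻¹ ^ 15) := by gcongr
    _ = _ := by ring

theorem far : P_FAR := far_of H847.ker1

end Vale.Agent.P091.CH.H350
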